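import Mathlib
import Vale.Agent.Lib.P157.Defs
import Vale.Agent.Lib.P157.DefsRS
import Vale.Agent.Lib.P157.UnivDefs
import Vale.Agent.Lib.P157.Phase
import Vale.Agent.Lib.P157.SignedLog
import Vale.Agent.Lib.P157.UnivFinal

/-!
The Ising perceptron on the cube: three results together. (I) For weights `U = e^f = A - φ` with
`φ(u) = ∫ cos(η u) dΛ(η)`, `A > Λ(ℝ)`: the limit of the expected pressure at every density, a
replica-symmetric upper bound and the exact threshold of the annealed formula. (II) The limit at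
every density for weights `A - φ` with `φ` the transform of a signed measure and `A` large.
(III) For every bounded Borel `f`, a comparison, uniform in `N` and `M`, with the Gaussian field of
covariance `M C_f(R(x,y))`.
-/

open MeasureTheory ProbabilityTheory Filter Topology Set

namespace Vale.Agent.Results.P157.A00_master

open Vale.Agent.Lib.P157

/-- The conjunction of (I) the annealed threshold theorem for `f = log (A - ∫ cos(η u) dΛ(η))`,
(II) the limit for `f = log (A - ∫ cos(η u) h(η) dΛ(η))`, `|h| ≤ 1`, when `κ ≠ 0` and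
`4 M₀ M₂² ≤ A κ²`, and (III) the comparison with a Gaussian field for every bounded Borel `f`. -/
theorem result :
    (∀ (Λ : Measure ℝ) [IsFiniteMeasure Λ] (A : ℝ), Λ.real Set.univ < A → ∀ α : ℝ, 0 < α →
      ∃ l : ℝ, Tendsto
          (fun N : ℕ => ∫ g, isingPressure (ndLogPotential Λ A) g ∂(patternLaw ⌊α * (N : ℝ)⌋₊ N))
          atTop (𝓝 l)
        ∧ (∀ b C : ℝ, 0 ≤ b → (∀ p ∈ Icc (0 : ℝ) 1, rsA Λ A p + b * p ≤ C) →
            l ≤ α * (C - b) + rsLam (2 * α * b))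
        ∧ ((∀ ρ : ℝ, |ρ| ≤ 1 →
              α * Real.log (((A - phat Λ) ^ 2 + kerK Λ ρ - kerK Λ 0) / (A - phat Λ) ^ 2)
                ≤ entI ρ) →
            l = α * Real.log (A - phat Λ))
        ∧ ((A - phat Λ) ^ 2 < α * cTwo Λ ^ 2 → l < α * Real.log (A - phat Λ))
        ∧ ((∀ᵐ η ∂Λ, η ^ 4 ≤ 2) →
            (l = α * Real.log (A - phat Λ) ↔ α * cTwo Λ ^ 2 ≤ (A - phat Λ) ^ 2))) ∧
    (∀ (Λ : Measure ℝ) [IsFiniteMeasure Λ] (h : ℝ → ℝ), Measurable h → (∀ η, |h η| ≤ 1) →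
      Integrable (fun η : ℝ => η ^ 2) Λ → ∀ A : ℝ,
      (∫ η, η ^ 2 * Real.exp (-(η ^ 2) / 2) * h η ∂Λ) ≠ 0 →
      4 * Λ.real Set.univ * (∫ η, η ^ 2 ∂Λ) ^ 2
        ≤ A * (∫ η, η ^ 2 * Real.exp (-(η ^ 2) / 2) * h η ∂Λ) ^ 2 →
      ∀ α : ℝ, 0 < α →
      ∃ l : ℝ, Tendsto
        (fun N : ℕ => ∫ g, isingPressure
          (fun u => Real.log (A - ∫ η, Real.cos (η * u) * h η ∂Λ)) g
          ∂(patternLaw ⌊α * (N : ℝ)⌋₊ N))
        atTop (𝓝 l)) ∧
    (∀ (f : ℝ → ℝ), Measurable f → ∀ B : ℝ, 0 < B → (∀ u, |f u| ≤ B) →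
      ∀ N M : ℕ, 0 < N → 0 < M →
      (∃ L : (Fin N → ℤˣ) → (Fin N → ℤˣ) → ℝ,
        ∀ x y, ∑ i, L x i * L y i = covKernel f (cubeOverlap x y)) ∧
      ∀ (D : Type) [Fintype D] (L : (Fin N → ℤˣ) → D → ℝ),
        (∀ x y, ∑ i, L x i * L y i = covKernel f (cubeOverlap x y)) →
        |∫ g, isingPressure f g ∂(patternLaw M N)
            - ((M : ℝ) / N) * ∫ u, f u ∂(gaussianReal 0 1) - gaussPressure M L|
          ≤ 160 * ((M : ℝ) / N) * B ^ 3 ∧
        |∫ g, isingPressure f g ∂(patternLaw M N)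
            - ((M : ℝ) / N) * ∫ u, f u ∂(gaussianReal 0 1) - gaussGround M L|
          ≤ Real.log 2 + 161 * B * ((M : ℝ) / N) ^ (1 / 3 : ℝ) ∧
        gaussGround M L = Real.sqrt ((M : ℝ) / N) * gaussGround N L) := by
  refine ⟨fun Λ _ A hA α hα => phase_main hA hα, ?_, ?_⟩
  · intro Λ _ h hm hb h2 A hκ hsmall α hα
    exact ising_limit_signed hm hb h2 hκ hsmall hα
  · intro f hf B hB0 hB N M hN hM
    refine ⟨Vale.Agent.Lib.P157.Univ.exists_L hN hf hB, fun D _ L hL => ?_⟩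
    exact ⟨Vale.Agent.Lib.P157.Univ.pressure_bound hN hf hB L hL M,
      Vale.Agent.Lib.P157.Univ.ground_bound hN hf hB L hL M hM hB0,
      Vale.Agent.Lib.P157.Univ.ground_scale hN hM L⟩

end Vale.Agent.Results.P157.A00_master
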