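import Mathlib
import Vale.Agent.Lib.P157.Defs
import Vale.Agent.Lib.P157.DefsRS
import Vale.Agent.Lib.P157.Phase

/-!
The Ising perceptron with weight `U = e^f = A - φ`, `φ(u) = ∫ cos(η u) dΛ(η)`, `A > Λ(ℝ)`: existence of
the limit of the expected pressure at every density, a replica-symmetric upper bound for it, and the
exact threshold of the annealed formula.
-/

open MeasureTheory ProbabilityTheory Filter Topology Set

namespace Vale.Agent.Results.P157.A_annealed_threshold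

open Vale.Agent.Lib.P157

/-- For `f(u) = log (A - ∫ cos(η u) dΛ(η))`, `Λ` a finite positive measure, `A > Λ(ℝ)`, and every
density `α > 0`, the expected pressure on the cube has a limit `l`, with:
(1) for all `b ≥ 0` and all `C` with `a(p) + b p ≤ C` on `[0,1]`: `l ≤ α (C - b) + Λ(2 α b)`;
(2) `l = α log μ`, `μ = A - φ̂`, as soon as the second-moment entropy condition holds at every `ρ`;
(3) `l < α log μ` as soon as `μ² < α c₂²`;
(4) if `η⁴ ≤ 2` holds `Λ`-almost everywhere then `l = α log μ` exactly when `α c₂² ≤ μ²`. -/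
theorem result (Λ : Measure ℝ) [IsFiniteMeasure Λ] (A : ℝ) (hA : Λ.real Set.univ < A)
    (α : ℝ) (hα : 0 < α) :
    ∃ l : ℝ, Tendsto
        (fun N : ℕ => ∫ g, isingPressure (ndLogPotential Λ A) g ∂(patternLaw ⌊α * (N : ℝ)⌋₊ N))
        atTop (𝓝 l)
      ∧ (∀ b C : ℝ, 0 ≤ b → (∀ p ∈ Icc (0 : ℝ) 1, rsA Λ A p + b * p ≤ C) →
          l ≤ α * (C - b) + rsLam (2 * α * b))
      ∧ ((∀ ρ : ℝ, |ρ| ≤ 1 →
            α * Real.log (((A - phat Λ) ^ 2 + kerK Λ ρ - kerK Λ 0) / (A - phat Λ) ^ 2) ≤ entI ρ) →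
          l = α * Real.log (A - phat Λ))
      ∧ ((A - phat Λ) ^ 2 < α * cTwo Λ ^ 2 → l < α * Real.log (A - phat Λ))
      ∧ ((∀ᵐ η ∂Λ, η ^ 4 ≤ 2) →
          (l = α * Real.log (A - phat Λ) ↔ α * cTwo Λ ^ 2 ≤ (A - phat Λ) ^ 2)) :=
  phase_main hA hα

end Vale.Agent.Results.P157.A_annealed_threshold
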