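import Mathlib
import Vale.Agent.Lib.P157.Defs
import Vale.Agent.Lib.P157.NegDef

/-!
Existence of the limit of the expected pressure on the Ising cube, at every pattern density, for
log-potentials `f = log (A - φ)`, where `φ` is a continuous positive-definite function with finite
spectral measure `Λ` and `A > Λ(ℝ)`.
-/

open MeasureTheory ProbabilityTheory Filter Topology

namespace Vale.Agent.Results.P157.A_cube_negdef

open Vale.Agent.Lib.P157

/-- For `f(u) = log (A - ∫ cos(η u) dΛ(η))`, with `Λ` a finite positive measure on `ℝ` and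
`A > Λ(ℝ)`, and for every density `α > 0`, the expected pressure on the Ising cube with
`M = ⌊α N⌋` standard Gaussian patterns converges as `N → ∞`. -/
theorem result (Λ : Measure ℝ) [IsFiniteMeasure Λ] (A : ℝ) (hA : Λ.real Set.univ < A)
    (α : ℝ) (hα : 0 < α) :
    ∃ l : ℝ, Tendsto
      (fun N : ℕ => ∫ g, isingPressure (ndLogPotential Λ A) g ∂(patternLaw ⌊α * (N : ℝ)⌋₊ N))
      atTop (𝓝 l) :=
  ising_limit_exists hA hα

end Vale.Agent.Results.P157.A_cube_negdef
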