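import Mathlib
import Vale.Agent.Lib.P157.Defs
import Vale.Agent.Lib.P157.SignedLog

/-!
Existence of the limit of the expected pressure on the Ising cube, at every pattern density, for
even log-potentials `f = log (A - φ)` of small relative amplitude, where `φ` has a signed spectral
density with finite second moment and non-vanishing Gaussian second moment.
-/

open MeasureTheory ProbabilityTheory Filter Topology

namespace Vale.Agent.Results.P157.B_cube_signed

open Vale.Agent.Lib.P157

/-- Let `Λ` be a finite positive measure on `ℝ` with finite second moment and `h` a measurable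
function with `|h| ≤ 1`, so that `h Λ` is an arbitrary finite signed measure with finite second
moment. Put `φ(u) = ∫ cos(η u) h(η) dΛ(η)`, `M₀ = Λ(ℝ)`, `M₂ = ∫ η² dΛ` and
`κ = ∫ η² exp(-η²/2) h(η) dΛ(η) = -E φ''(G)`. If `κ ≠ 0` and `4 M₀ M₂² ≤ A κ²`, then for every
density `α > 0` the expected pressure of `f = log (A - φ)` on the Ising cube converges. -/
theorem result (Λ : Measure ℝ) [IsFiniteMeasure Λ] (h : ℝ → ℝ) (hm : Measurable h)
    (hb : ∀ η, |h η| ≤ 1) (h2 : Integrable (fun η : ℝ => η ^ 2) Λ) (A : ℝ)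
    (hκ : (∫ η, η ^ 2 * Real.exp (-(η ^ 2) / 2) * h η ∂Λ) ≠ 0)
    (hsmall : 4 * Λ.real Set.univ * (∫ η, η ^ 2 ∂Λ) ^ 2
      ≤ A * (∫ η, η ^ 2 * Real.exp (-(η ^ 2) / 2) * h η ∂Λ) ^ 2)
    (α : ℝ) (hα : 0 < α) :
    ∃ l : ℝ, Tendsto
      (fun N : ℕ => ∫ g, isingPressure
        (fun u => Real.log (A - ∫ η, Real.cos (η * u) * h η ∂Λ)) g
        ∂(patternLaw ⌊α * (N : ℝ)⌋₊ N))
      atTop (𝓝 l) :=
  ising_limit_signed hm hb h2 hκ hsmall hα

end Vale.Agent.Results.P157.B_cube_signed
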