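import Mathlib
import Vale.Agent.Lib.P157.Defs
import Vale.Agent.Lib.P157.UnivDefs
import Vale.Agent.Lib.P157.UnivFinal

/-!
For every bounded Borel log-potential `f`, the Gaussian perceptron on the Ising cube is compared,
non-asymptotically in `N` and `M`, with the centred Gaussian field on the cube with covariance
`M C_f(R(x,y))`, where `C_f(ρ) = Cov(f(G₁), f(G₂))` for standard Gaussians with correlation `ρ`.
-/

open MeasureTheory ProbabilityTheory Filter Topology

namespace Vale.Agent.Results.P157.C_universal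

open Vale.Agent.Lib.P157

/-- Let `|f| ≤ B` be Borel, `N, M ≥ 1`. The matrix `C_f(R(x,y))` on the cube has a representation
`∑_i L x i * L y i`, and for every such `L`, writing `H_z(x) = √M ∑_i L x i z_i` with `z` standard
Gaussian (a centred Gaussian field with covariance `M C_f(R(x,y))`):
* `|E p_N(f) - (M/N) E f(G) - E (1/N) log 2^{-N} ∑_x exp H_z(x)| ≤ 160 (M/N) B³`;
* `|E p_N(f) - (M/N) E f(G) - E (1/N) max_x H_z(x)| ≤ log 2 + 161 B (M/N)^{1/3}`;
* `E (1/N) max_x H_z(x) = √(M/N) · G`, where `G` is the same quantity for `M = N`. -/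
theorem result (f : ℝ → ℝ) (hf : Measurable f) (B : ℝ) (hB0 : 0 < B) (hB : ∀ u, |f u| ≤ B)
    (N M : ℕ) (hN : 0 < N) (hM : 0 < M) :
    (∃ L : (Fin N → ℤˣ) → (Fin N → ℤˣ) → ℝ,
      ∀ x y, ∑ i, L x i * L y i = covKernel f (cubeOverlap x y)) ∧
    ∀ (D : Type) [Fintype D] (L : (Fin N → ℤˣ) → D → ℝ),
      (∀ x y, ∑ i, L x i * L y i = covKernel f (cubeOverlap x y)) →
      |∫ g, isingPressure f g ∂(patternLaw M N)
          - ((M : ℝ) / N) * ∫ u, f u ∂(gaussianReal 0 1) - gaussPressure M L|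
        ≤ 160 * ((M : ℝ) / N) * B ^ 3 ∧
      |∫ g, isingPressure f g ∂(patternLaw M N)
          - ((M : ℝ) / N) * ∫ u, f u ∂(gaussianReal 0 1) - gaussGround M L|
        ≤ Real.log 2 + 161 * B * ((M : ℝ) / N) ^ (1 / 3 : ℝ) ∧
      gaussGround M L = Real.sqrt ((M : ℝ) / N) * gaussGround N L := by
  refine ⟨Vale.Agent.Lib.P157.Univ.exists_L hN hf hB, fun D _ L hL => ?_⟩
  refine ⟨Vale.Agent.Lib.P157.Univ.pressure_bound hN hf hB L hL M,
    Vale.Agent.Lib.P157.Univ.ground_bound hN hf hB L hL M hM hB0,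
    Vale.Agent.Lib.P157.Univ.ground_scale hN hM L⟩

end Vale.Agent.Results.P157.C_universal
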